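import Mathlib
import Vale.Agent.P069.Separable

/-!
A separable reflexive Banach space whose norm is asymptotically midpoint uniformly convex (AMUC),
and which has no equivalent asymptotically uniformly convex (AUC) norm.
-/

namespace Vale.Agent.Results.P069.Counterexample

section defs

variable (X : Type*) [NormedAddCommGroup X] [NormedSpace ℝ X]

/-- The set of closed linear subspaces of finite codimension of `X`. -/
def cof : Set (Submodule ℝ X) :=
  {F | IsClosed (F : Set X) ∧ FiniteDimensional ℝ (X ⧸ F)}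

variable {X}

/-- `N` is an equivalent norm on `X`: a seminorm with `c‖x‖ ≤ N x ≤ C‖x‖` for some `c, C > 0`. -/
def IsEquivalentNorm (N : Seminorm ℝ X) : Prop :=
  ∃ c C : ℝ, 0 < c ∧ 0 < C ∧ ∀ x : X, c * ‖x‖ ≤ N x ∧ N x ≤ C * ‖x‖

/-- The modulus of asymptotic uniform convexity of `N`,
`inf_{N x = 1} sup_{F ∈ cof X} inf_{y ∈ F, N y = 1} (N (x + t y) - 1)`. -/
noncomputable def aucModulus (N : Seminorm ℝ X) (t : ℝ) : EReal :=
  ⨅ (x : X) (_ : N x = 1), ⨆ (F : Submodule ℝ X) (_ : F ∈ cof X),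
    ⨅ (y : X) (_ : y ∈ F ∧ N y = 1), ((N (x + t • y) - 1 : ℝ) : EReal)

/-- The modulus of asymptotic midpoint uniform convexity of `N`,
`inf_{N x = 1} sup_{F ∈ cof X} inf_{y ∈ F, N y = 1} (max (N (x + t y)) (N (x - t y)) - 1)`. -/
noncomputable def amucModulus (N : Seminorm ℝ X) (t : ℝ) : EReal :=
  ⨅ (x : X) (_ : N x = 1), ⨆ (F : Submodule ℝ X) (_ : F ∈ cof X),
    ⨅ (y : X) (_ : y ∈ F ∧ N y = 1),
      ((max (N (x + t • y)) (N (x - t • y)) - 1 : ℝ) : EReal)

/-- `N` is asymptotically uniformly convex. -/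
def IsAUC (N : Seminorm ℝ X) : Prop := ∀ t : ℝ, 0 < t → 0 < aucModulus N t

/-- `N` is asymptotically midpoint uniformly convex. -/
def IsAMUC (N : Seminorm ℝ X) : Prop := ∀ t : ℝ, 0 < t → 0 < amucModulus N t

variable (X)

/-- `X` has an equivalent AUC norm. -/
def AUCRenormable : Prop := ∃ N : Seminorm ℝ X, IsEquivalentNorm N ∧ IsAUC N

/-- `X` has an equivalent AMUC norm. -/
def AMUCRenormable : Prop := ∃ N : Seminorm ℝ X, IsEquivalentNorm N ∧ IsAMUC N

/-- `X` is reflexive: the canonical map into the bidual is onto. -/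
def Reflexive : Prop := Function.Surjective (NormedSpace.inclusionInDoubleDual ℝ X)

end defs

section aux

variable {X : Type*} [NormedAddCommGroup X] [NormedSpace ℝ X]

theorem auc_eps {N : Seminorm ℝ X} (h : IsAUC N) (t : ℝ) (ht : 0 < t) :
    ∃ δ : ℝ, 0 < δ ∧ ∀ x : X, N x = 1 →
      ∃ F : Submodule ℝ X, IsClosed (F : Set X) ∧ FiniteDimensional ℝ (X ⧸ F) ∧
        ∀ y ∈ F, N y = 1 → 1 + δ ≤ N (x + t • y) := by
  obtain ⟨δ, hδ1, hδ2⟩ := EReal.lt_iff_exists_real_btwn.1 (h t ht)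
  refine ⟨δ, by exact_mod_cast hδ1, fun x hx => ?_⟩
  have h1 : (δ : EReal) < ⨆ (F : Submodule ℝ X) (_ : F ∈ cof X),
      ⨅ (y : X) (_ : y ∈ F ∧ N y = 1), ((N (x + t • y) - 1 : ℝ) : EReal) :=
    lt_of_lt_of_le hδ2 (iInf₂_le x hx)
  rw [lt_iSup_iff] at h1
  obtain ⟨F, hF⟩ := h1
  rw [lt_iSup_iff] at hF
  obtain ⟨hFc, hF⟩ := hF
  refine ⟨F, hFc.1, hFc.2, fun y hy hy1 => ?_⟩
  have h2 : (δ : EReal) < ((N (x + t • y) - 1 : ℝ) : EReal) :=
    lt_of_lt_of_le hF (iInf₂_le y ⟨hy, hy1⟩)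
  have h3 : δ < N (x + t • y) - 1 := by exact_mod_cast h2
  linarith

theorem amuc_of_eps {N : Seminorm ℝ X} {t δ : ℝ} (hδ : 0 < δ)
    (h : ∀ x : X, N x = 1 →
      ∃ F : Submodule ℝ X, IsClosed (F : Set X) ∧ FiniteDimensional ℝ (X ⧸ F) ∧
        ∀ y ∈ F, N y = 1 → 1 + δ ≤ max (N (x + t • y)) (N (x - t • y))) :
    0 < amucModulus N t := by
  have h1 : (δ : EReal) ≤ amucModulus N t := by
    refine le_iInf₂ fun x hx => ?_
    obtain ⟨F, hF1, hF2, hF3⟩ := h x hx
    refine le_trans ?_ (le_iSup₂ (f := fun (F : Submodule ℝ X) (_ : F ∈ cof X) =>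
      ⨅ (y : X) (_ : y ∈ F ∧ N y = 1),
        ((max (N (x + t • y)) (N (x - t • y)) - 1 : ℝ) : EReal)) F ⟨hF1, hF2⟩)
    refine le_iInf₂ fun y hy => ?_
    have h2 := hF3 y hy.1 hy.2
    have h3 : δ ≤ max (N (x + t • y)) (N (x - t • y)) - 1 := by linarith
    exact_mod_cast h3
  exact lt_of_lt_of_le (by exact_mod_cast hδ) h1

end aux

open Vale.Agent.P069 in
theorem amucRenormable_X : AMUCRenormable Vale.Agent.P069.X := by
  refine ⟨normSeminorm ℝ X, ⟨1, 1, one_pos, one_pos, fun x => by simp⟩, ?_⟩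
  intro t ht
  refine amuc_of_eps (δ := min t 1 * t / 512) (by positivity) fun x hx => ?_
  exact amuc_ineq (x := x) hx ht

open Vale.Agent.P069 in
theorem not_aucRenormable_X : ¬ AUCRenormable Vale.Agent.P069.X := by
  rintro ⟨N, ⟨c, C, hc, _, hcC⟩, hN⟩
  exact no_auc N hc hcC (auc_eps hN)

open Vale.Agent.P069 in
theorem not_finiteDimensional_X : ¬ FiniteDimensional ℝ Vale.Agent.P069.X := by
  intro hfin
  refine no_auc (normSeminorm ℝ X) one_pos (b := 1) (fun x => by simp) ?_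
  intro t _
  refine ⟨1, one_pos, fun x _ => ⟨⊥, ?_, ?_, ?_⟩⟩
  · exact Submodule.closed_of_finiteDimensional _
  · infer_instance
  · intro y hy hy1
    rw [Submodule.mem_bot] at hy
    rw [hy, map_zero] at hy1
    exact absurd hy1 zero_ne_one

/-- There is an infinite-dimensional separable reflexive real Banach space that is AMUC
renormable but not AUC renormable. -/
theorem result :
    ∃ (X : Type) (_ : NormedAddCommGroup X) (_ : NormedSpace ℝ X),
      CompleteSpace X ∧ ¬ FiniteDimensional ℝ X ∧ TopologicalSpace.SeparableSpace X ∧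
        Reflexive X ∧ AMUCRenormable X ∧ ¬ AUCRenormable X :=
  ⟨Vale.Agent.P069.X, inferInstance, inferInstance, inferInstance, not_finiteDimensional_X,
    Vale.Agent.P069.separable_X, Vale.Agent.P069.isReflexive_X, amucRenormable_X,
    not_aucRenormable_X⟩

end Vale.Agent.Results.P069.Counterexample
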